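import Vale.Agent.Lib.P068.Dual

/-!
P068: the matroid intersection conjecture for arbitrary (possibly non-finitary) matroids of any
cardinality whose common independent sets, or whose common coindependent sets, are bounded in
size.
-/

namespace Vale.Agent.Results.P068.BoundedOrDual

open Vale.Agent.P068

/-- Let `M`, `N` be arbitrary matroids on the same (possibly infinite) ground set. If the finite
common independent sets of `M` and `N`, or those of the duals of `M` and `N`, have bounded size,
in particular if `M` or `N` has finite rank or finite corank, then `(M, N)` satisfies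
intersection. -/
theorem result {α : Type*} (M N : Matroid α) (hE : M.E = N.E)
    (h : M.RankFinite ∨ N.RankFinite ∨ M✶.RankFinite ∨ N✶.RankFinite ∨ Bdd M N ∨ Bdd M✶ N✶) :
    SatInt M N := by
  have hl : ∀ A B : Matroid α, A.RankFinite → Bdd A B := by
    intro A B hA
    refine ⟨A.eRank.toNat, fun J hJ _ => ?_⟩
    have h1 := hJ.encard_le_eRank
    rw [Set.encard_coe_eq_coe_finsetCard] at h1
    exact ENat.toNat_le_toNat h1 (A.eRank_ne_top_iff.2 hA)
  have hr : ∀ A B : Matroid α, B.RankFinite → Bdd A B := by
    intro A B hB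
    obtain ⟨k, hk⟩ := hl B A hB
    exact ⟨k, fun J h1 h2 => hk J h2 h1⟩
  have hm : ∀ A B : Matroid α, A.E = B.E → Bdd A B → SatInt A B := by
    rintro A B hAB ⟨k, hk⟩
    obtain ⟨JM, JN, h1, _, h3, h4, h5⟩ := main A B hAB k hk
    exact ⟨JM, JN, h1, h3, h4, h5⟩
  rcases h with h | h | h | h | h | h
  · exact hm M N hE (hl M N h)
  · exact hm M N hE (hr M N h)
  · exact SatInt.of_dual M N hE (hm M✶ N✶ hE (hl _ _ h))
  · exact SatInt.of_dual M N hE (hm M✶ N✶ hE (hr _ _ h))
  · exact hm M N hE h
  · exact SatInt.of_dual M N hE (hm M✶ N✶ hE h)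

end Vale.Agent.Results.P068.BoundedOrDual
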