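import Vale.Agent.Lib.P068.PC

/-!
P068: packing/covering partitions for arbitrary families of arbitrary matroids whose disjoint
independent families are bounded in total size.
-/

namespace Vale.Agent.Results.P068.PackingCovering

open Vale.Agent.P068

/-- Let `M i` (`i` in any index set) be arbitrary matroids on the same (possibly infinite) ground
set `E`. Suppose that some `k` bounds the total size of every finite family of pairwise disjoint
finite sets `I i`, `I i` independent in `M i`; this holds for instance if there are finitely many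
matroids, all of finite rank. Then the family has a packing/covering partition: `E` is the
disjoint union of `P` and `C`, there are pairwise disjoint `S i ⊆ P` such that `S i` spans `P` in
`M i`, and there are `I i ⊆ C`, independent in the contraction of `M i` onto `C` (that is `M i`
contracted by `P`), with union `C`. -/
theorem result {α ι : Type*} (M : ι → Matroid α) (E : Set α) (hE : ∀ i, (M i).E = E)
    (h : (Finite ι ∧ ∀ i, (M i).RankFinite) ∨
      ∃ k : ℕ, ∀ (F : Finset ι) (I : ι → Finset α), (∀ i ∈ F, (M i).Indep (I i : Set α)) →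
        (∀ i ∈ F, ∀ j ∈ F, i ≠ j → Disjoint (I i) (I j)) → ∑ i ∈ F, (I i).card ≤ k) :
    ∃ (P C : Set α) (S I : ι → Set α), P ∪ C = E ∧ Disjoint P C ∧
      (∀ i, S i ⊆ P) ∧ (∀ i j, i ≠ j → Disjoint (S i) (S j)) ∧
      (∀ i, P ⊆ (M i).closure (S i)) ∧
      (∀ i, I i ⊆ C) ∧ (∀ i, ((M i).contract P).Indep (I i)) ∧ (⋃ i, I i) = C := by
  classical
  obtain ⟨k, hk⟩ : ∃ k : ℕ, ∀ (F : Finset ι) (I : ι → Finset α),
      (∀ i ∈ F, (M i).Indep (I i : Set α)) →
      (∀ i ∈ F, ∀ j ∈ F, i ≠ j → Disjoint (I i) (I j)) → ∑ i ∈ F, (I i).card ≤ k := by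
    rcases h with ⟨hf, hr⟩ | h
    · have := Fintype.ofFinite ι
      refine ⟨∑ i, (M i).eRank.toNat, fun F I hI _ => ?_⟩
      refine (Finset.sum_le_sum fun i hi => ?_).trans
        (Finset.sum_le_sum_of_subset (Finset.subset_univ F))
      have h1 := (hI i hi).encard_le_eRank
      rw [Set.encard_coe_eq_coe_finsetCard] at h1
      exact ENat.toNat_le_toNat h1 ((M i).eRank_ne_top_iff.2 (hr i))
    · exact h
  refine pc M E hE k fun J hJ => ?_
  rw [← sum_card_fib J]
  refine hk _ (fun i => fib J i) (fun i _ => hJ.1 i) fun i _ j _ hij => ?_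
  rw [Finset.disjoint_left]
  intro e h1 h2
  have h3 : (J.image Prod.fst).card = J.card := hJ.2
  have h4 := Finset.card_image_iff.1 h3 (mem_fib.1 h1) (mem_fib.1 h2) rfl
  exact hij (Prod.mk.inj h4).2

end Vale.Agent.Results.P068.PackingCovering
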